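import Vale.Agent.Lib.P154.FinalGW

open Vale.Agent.Lib.P154.Model in
/-- Nonreconstruction for the three-state Potts channel with nonnegative eigenvalue whenever
`d * lam ^ 2 ≤ 1`: on the rooted `d`-ary tree for every `d ≥ 2`, on the Poisson Galton-Watson tree of
mean `d` for every `d > 0`, and on the Galton-Watson tree of any offspring law of finite mean `m`
with `m * lam ^ 2 ≤ 1`, other than the trivial case of exactly one child and `lam = 1`. -/
theorem Vale.Agent.Results.P154.PottsAllTrees.result :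
    (∀ (d : ℕ), 2 ≤ d → ∀ lam : ℝ, 0 ≤ lam → (d : ℝ) * lam ^ 2 ≤ 1 →
      Filter.Tendsto (fun n => advantage 3 d lam n) Filter.atTop (nhds 0)) ∧
    (∀ d : ℝ, 0 < d → ∀ lam : ℝ, 0 ≤ lam → lam ≤ 1 → d * lam ^ 2 ≤ 1 →
      (∀ n, Summable (gwTerm 3 (poissonLaw d) lam n)) ∧
        Filter.Tendsto (fun n => gwAdvantage 3 (poissonLaw d) lam n) Filter.atTop (nhds 0)) ∧
    (∀ (p : ℕ → ℝ) (m lam : ℝ), (∀ k, 0 ≤ p k) → HasSum p 1 → HasSum (fun k : ℕ => (k : ℝ) * p k) m →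
      0 ≤ lam → lam ≤ 1 → m * lam ^ 2 ≤ 1 → ¬ (p 1 = 1 ∧ lam = 1) →
      (∀ n, Summable (gwTerm 3 p lam n)) ∧
        Filter.Tendsto (fun n => gwAdvantage 3 p lam n) Filter.atTop (nhds 0)) :=
  ⟨fun d hd lam h0 h1 => Vale.Agent.Lib.P154.main_dary d hd lam h0 h1,
   fun _ hd _ h0 h1 hk => Vale.Agent.Lib.P154.main_poisson hd h0 h1 hk,
   fun _ _ _ hp hs hm h0 h1 hk hnd => Vale.Agent.Lib.P154.main_gw hp hs hm h0 h1 hk hnd⟩
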